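import Vale.Agent.P372.H132.Ker

set_option linter.all false

/-! Maps `T` with `T (M* M') = ∑ W_u(M)* W_u(M')` and `T(M') T(M)* = ∑ ± W_u(M)* W_u(M')`. -/

open Matrix Finset
open scoped ComplexOrder

namespace Vale.Agent.P372.H132

/-- The data of a map with the strong flip property. -/
structure Fl (C : Type) [Fintype C] [DecidableEq C] where
  U : Type
  fU : Fintype U
  t : C → C → C → C → ℝ
  w : U → C → C → C → C → ℝ
  sg : U → ℝ
  sg_le : ∀ u, |sg u| ≤ 1
  k1 : ∀ p q r s i j, ∑ u, ∑ k, w u p q k i * w u r s k j = if p = r then t q s i j else 0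
  k2 : ∀ p q r s i j, ∑ u, sg u * ∑ k, w u p q k i * w u r s k j = ∑ k, t r s i k * t p q j k
  sym : ∀ p q i j, t p q i j = t j i q p
  tp : ∀ p q, ∑ i, t p q i i = if p = q then 1 else 0

attribute [instance] Fl.fU

/-- The product of two maps. -/
def Fl.prod {C D : Type} [Fintype C] [DecidableEq C] [Fintype D] [DecidableEq D] (F : Fl C)
    (G : Fl D) : Fl (C × D) where
  U := F.U × G.U
  fU := inferInstance
  t := fun p q i j => F.t p.1 q.1 i.1 j.1 * G.t p.2 q.2 i.2 j.2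
  w := fun u p q k i => F.w u.1 p.1 q.1 k.1 i.1 * G.w u.2 p.2 q.2 k.2 i.2
  sg := fun u => F.sg u.1 * G.sg u.2
  sg_le := fun u => by
    rw [abs_mul]
    exact mul_le_one₀ (F.sg_le _) (abs_nonneg _) (G.sg_le _)
  k1 := fun p q r s i j => by
    have h1 := F.k1 p.1 q.1 r.1 s.1 i.1 j.1
    have h2 := G.k1 p.2 q.2 r.2 s.2 i.2 j.2
    have h3 : (∑ u : F.U × G.U, ∑ k : C × D, F.w u.1 p.1 q.1 k.1 i.1 * G.w u.2 p.2 q.2 k.2 i.2 *
        (F.w u.1 r.1 s.1 k.1 j.1 * G.w u.2 r.2 s.2 k.2 j.2)) =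
        (∑ u, ∑ k, F.w u p.1 q.1 k i.1 * F.w u r.1 s.1 k j.1) *
          ∑ u, ∑ k, G.w u p.2 q.2 k i.2 * G.w u r.2 s.2 k j.2 := by
      rw [Fintype.sum_prod_type, Finset.sum_mul_sum]
      refine Finset.sum_congr rfl fun u _ => Finset.sum_congr rfl fun v _ => ?_
      rw [Fintype.sum_prod_type, Finset.sum_mul_sum]
      refine Finset.sum_congr rfl fun k _ => Finset.sum_congr rfl fun l _ => by ring
    rw [h3, h1, h2]
    by_cases ha : p.1 = r.1
    · by_cases hb : p.2 = r.2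
      · rw [if_pos ha, if_pos hb, if_pos (Prod.ext ha hb)]
      · rw [if_neg hb, mul_zero, if_neg fun h => hb (congrArg Prod.snd h)]
    · rw [if_neg ha, zero_mul, if_neg fun h => ha (congrArg Prod.fst h)]
  k2 := fun p q r s i j => by
    have h1 := F.k2 p.1 q.1 r.1 s.1 i.1 j.1
    have h2 := G.k2 p.2 q.2 r.2 s.2 i.2 j.2
    have h3 : (∑ u : F.U × G.U, F.sg u.1 * G.sg u.2 *
        ∑ k : C × D, F.w u.1 p.1 q.1 k.1 i.1 * G.w u.2 p.2 q.2 k.2 i.2 *
        (F.w u.1 r.1 s.1 k.1 j.1 * G.w u.2 r.2 s.2 k.2 j.2)) =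
        (∑ u, F.sg u * ∑ k, F.w u p.1 q.1 k i.1 * F.w u r.1 s.1 k j.1) *
          ∑ u, G.sg u * ∑ k, G.w u p.2 q.2 k i.2 * G.w u r.2 s.2 k j.2 := by
      rw [Fintype.sum_prod_type, Finset.sum_mul_sum]
      refine Finset.sum_congr rfl fun u _ => Finset.sum_congr rfl fun v _ => ?_
      rw [mul_mul_mul_comm, Fintype.sum_prod_type, Finset.sum_mul_sum]
      congr 1
      refine Finset.sum_congr rfl fun k _ => Finset.sum_congr rfl fun l _ => by ring
    rw [h3, h1, h2, Fintype.sum_prod_type, Finset.sum_mul_sum]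
    refine Finset.sum_congr rfl fun k _ => Finset.sum_congr rfl fun l _ => by ring
  sym := fun p q i j => by rw [F.sym, G.sym]
  tp := fun p q => by
    rw [Fintype.sum_prod_type]
    have h3 : (∑ x, ∑ y, F.t p.1 q.1 x x * G.t p.2 q.2 y y) =
        (∑ x, F.t p.1 q.1 x x) * ∑ y, G.t p.2 q.2 y y := by rw [Finset.sum_mul_sum]
    refine h3.trans ?_
    rw [F.tp, G.tp]
    by_cases ha : p.1 = q.1
    · by_cases hb : p.2 = q.2
      · rw [if_pos ha, if_pos hb, if_pos (Prod.ext ha hb), one_mul]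
      · rw [if_neg hb, mul_zero, if_neg fun h => hb (congrArg Prod.snd h)]
    · rw [if_neg ha, zero_mul, if_neg fun h => ha (congrArg Prod.fst h)]

/-- The tensor power. -/
def Fl.pi {C : Type} [Fintype C] [DecidableEq C] (F : Fl C) (n : ℕ) : Fl (Fin n → C) where
  U := Fin n → F.U
  fU := inferInstance
  t := fun p q i j => ∏ s, F.t (p s) (q s) (i s) (j s)
  w := fun u p q k i => ∏ s, F.w (u s) (p s) (q s) (k s) (i s)
  sg := fun u => ∏ s, F.sg (u s)
  sg_le := fun u => by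
    rw [Finset.abs_prod]
    exact Finset.prod_le_one (fun _ _ => abs_nonneg _) fun s _ => F.sg_le _
  k1 := fun p q r s i j => by
    have h3 : (∑ u : Fin n → F.U, ∑ k : Fin n → C,
        (∏ a, F.w (u a) (p a) (q a) (k a) (i a)) * ∏ a, F.w (u a) (r a) (s a) (k a) (j a)) =
        ∏ a, ∑ u, ∑ k, F.w u (p a) (q a) k (i a) * F.w u (r a) (s a) k (j a) := by
      rw [Finset.prod_univ_sum, Fintype.piFinset_univ]
      refine Finset.sum_congr rfl fun u _ => ?_
      rw [Finset.prod_univ_sum, Fintype.piFinset_univ]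
      exact Finset.sum_congr rfl fun k _ => Finset.prod_mul_distrib.symm
    rw [h3]
    simp only [F.k1]
    by_cases h : p = r
    · subst h
      simp
    · rw [if_neg h]
      obtain ⟨a, ha⟩ := Function.ne_iff.mp h
      exact Finset.prod_eq_zero (Finset.mem_univ a) (if_neg ha)
  k2 := fun p q r s i j => by
    have h3 : (∑ u : Fin n → F.U, (∏ a, F.sg (u a)) * ∑ k : Fin n → C,
        (∏ a, F.w (u a) (p a) (q a) (k a) (i a)) * ∏ a, F.w (u a) (r a) (s a) (k a) (j a)) =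
        ∏ a, ∑ u, F.sg u * ∑ k, F.w u (p a) (q a) k (i a) * F.w u (r a) (s a) k (j a) := by
      rw [Finset.prod_univ_sum, Fintype.piFinset_univ]
      refine Finset.sum_congr rfl fun u _ => ?_
      rw [Finset.prod_mul_distrib, Finset.prod_univ_sum, Fintype.piFinset_univ]
      congr 1
      exact Finset.sum_congr rfl fun k _ => Finset.prod_mul_distrib.symm
    rw [h3]
    simp only [F.k2]
    rw [Finset.prod_univ_sum, Fintype.piFinset_univ]
    exact Finset.sum_congr rfl fun k _ => Finset.prod_mul_distrib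
  sym := fun p q i j => Finset.prod_congr rfl fun a _ => F.sym _ _ _ _
  tp := fun p q => by
    have h3 : (∑ i : Fin n → C, ∏ a, F.t (p a) (q a) (i a) (i a)) =
        ∏ a, ∑ i, F.t (p a) (q a) i i := by
      rw [Finset.prod_univ_sum, Fintype.piFinset_univ]
    rw [h3]
    simp only [F.tp]
    by_cases h : p = q
    · subst h
      simp
    · rw [if_neg h]
      obtain ⟨a, ha⟩ := Function.ne_iff.mp h
      exact Finset.prod_eq_zero (Finset.mem_univ a) (if_neg ha)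

section use

variable {C : Type} [Fintype C] [DecidableEq C] (F : Fl C)

/-- The complex kernel. -/
def Fl.k (F : Fl C) : C → C → C → C → ℂ := fun p q i j => (F.t p q i j : ℂ)

/-- The map. -/
def Fl.S (F : Fl C) (Z : Matrix C C ℂ) : Matrix C C ℂ := app F.k Z

/-- The auxiliary maps. -/
def Fl.W (F : Fl C) (u : F.U) (Z : Matrix C C ℂ) : Matrix C C ℂ :=
  app (fun p q i j => (F.w u p q i j : ℂ)) Z

theorem sum4 {α β γ δ : Type*} [Fintype α] [Fintype β] [Fintype γ] [Fintype δ]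
    (g : α → β → γ → δ → ℂ) :
    ∑ u, ∑ k, ∑ x, ∑ y, g u k x y = ∑ x, ∑ y, ∑ u, ∑ k, g u k x y :=
  calc ∑ u, ∑ k, ∑ x, ∑ y, g u k x y = ∑ u, ∑ x, ∑ k, ∑ y, g u k x y :=
        Finset.sum_congr rfl fun _ _ => Finset.sum_comm
    _ = ∑ x, ∑ u, ∑ k, ∑ y, g u k x y := Finset.sum_comm
    _ = ∑ x, ∑ u, ∑ y, ∑ k, g u k x y :=
        Finset.sum_congr rfl fun _ _ => Finset.sum_congr rfl fun _ _ => Finset.sum_comm
    _ = ∑ x, ∑ y, ∑ u, ∑ k, g u k x y := Finset.sum_congr rfl fun _ _ => Finset.sum_comm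

theorem app_pair (k : C → C → C → C → ℂ) (Z : Matrix C C ℂ) (i j : C) :
    app k Z i j = ∑ x : C × C, Z x.1 x.2 * k x.1 x.2 i j := by
  rw [Fintype.sum_prod_type]
  rfl

theorem Fl.gram_aux (c : F.U → ℝ) (M M' : Matrix C C ℂ) (i j : C) :
    ∑ u, (c u : ℂ) * ((F.W u M)ᴴ * F.W u M') i j =
      ∑ x : C × C, ∑ y : C × C, star (M x.1 x.2) * M' y.1 y.2 *
        ((∑ u, c u * ∑ k, F.w u x.1 x.2 k i * F.w u y.1 y.2 k j : ℝ) : ℂ) := by
  have h1 : ∀ u, ((F.W u M)ᴴ * F.W u M') i j = ∑ k, ∑ x : C × C, ∑ y : C × C,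
      star (M x.1 x.2) * M' y.1 y.2 * ((F.w u x.1 x.2 k i * F.w u y.1 y.2 k j : ℝ) : ℂ) := by
    intro u
    rw [Matrix.mul_apply]
    refine Finset.sum_congr rfl fun k _ => ?_
    rw [Matrix.conjTranspose_apply, Fl.W, Fl.W, app_pair, app_pair, star_sum, Finset.sum_mul_sum]
    refine Finset.sum_congr rfl fun x _ => Finset.sum_congr rfl fun y _ => ?_
    simp only [star_mul', RCLike.star_def, Complex.conj_ofReal]
    push_cast
    ring
  simp only [h1, Finset.mul_sum]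
  rw [sum4]
  refine Finset.sum_congr rfl fun x _ => Finset.sum_congr rfl fun y _ => ?_
  push_cast
  simp only [Finset.mul_sum]
  refine Finset.sum_congr rfl fun u _ => Finset.sum_congr rfl fun k _ => by ring

theorem Fl.S_add (X Y : Matrix C C ℂ) : F.S (X + Y) = F.S X + F.S Y := app_add _ _ _
theorem Fl.S_smul (c : ℂ) (X : Matrix C C ℂ) : F.S (c • X) = c • F.S X := app_smul _ _ _
theorem Fl.S_sub (X Y : Matrix C C ℂ) : F.S (X - Y) = F.S X - F.S Y := app_sub _ _ _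
theorem Fl.S_sum {ι : Type*} (s : Finset ι) (X : ι → Matrix C C ℂ) :
    F.S (∑ x ∈ s, X x) = ∑ x ∈ s, F.S (X x) := app_sum _ _ _

theorem Fl.S_gram (M M' : Matrix C C ℂ) :
    F.S (Mᴴ * M') = ∑ u, (F.W u M)ᴴ * F.W u M' := by
  ext i j
  have h := F.gram_aux (fun _ => 1) M M' i j
  simp only [one_mul, Complex.ofReal_one, F.k1] at h
  rw [Matrix.sum_apply, h, Fl.S, app_pair]
  simp only [Fl.k, Matrix.mul_apply, Matrix.conjTranspose_apply]
  rw [Fintype.sum_prod_type, Fintype.sum_prod_type]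
  have h2 : ∀ x x_1 : C, ∑ y : C × C, star (M x x_1) * M' y.1 y.2 *
      ((if x = y.1 then F.t x_1 y.2 i j else 0 : ℝ) : ℂ) =
      ∑ b, star (M x x_1) * M' x b * (F.t x_1 b i j : ℂ) := by
    intro a b
    rw [Fintype.sum_prod_type, Finset.sum_eq_single a]
    · simp
    · intro c _ hc
      simp [Ne.symm hc]
    · intro h
      exact absurd (Finset.mem_univ _) h
  simp only [h2, Finset.sum_mul]
  calc ∑ q, ∑ s, ∑ p, star (M p q) * M' p s * (F.t q s i j : ℂ)
      = ∑ q, ∑ p, ∑ s, star (M p q) * M' p s * (F.t q s i j : ℂ) :=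
        Finset.sum_congr rfl fun _ _ => Finset.sum_comm
    _ = ∑ p, ∑ q, ∑ s, star (M p q) * M' p s * (F.t q s i j : ℂ) := Finset.sum_comm

theorem Fl.S_anti (M M' : Matrix C C ℂ) :
    F.S M' * (F.S M)ᴴ = ∑ u, (F.sg u : ℂ) • ((F.W u M)ᴴ * F.W u M') := by
  ext i j
  rw [Matrix.sum_apply]
  simp only [Matrix.smul_apply, smul_eq_mul]
  rw [F.gram_aux F.sg M M' i j]
  simp only [F.k2, Matrix.mul_apply, Matrix.conjTranspose_apply, Fl.S, app_pair, Fl.k, star_sum,
    star_mul', RCLike.star_def, Complex.conj_ofReal, Finset.sum_mul_sum]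
  rw [Finset.sum_comm]
  have h3 : ∀ y : C × C, ∑ k, ∑ x : C × C, M' y.1 y.2 * (F.t y.1 y.2 i k : ℂ) *
      ((starRingEnd ℂ) (M x.1 x.2) * (F.t x.1 x.2 j k : ℂ)) =
      ∑ x : C × C, (starRingEnd ℂ) (M x.1 x.2) * M' y.1 y.2 *
        ((∑ k, F.t y.1 y.2 i k * F.t x.1 x.2 j k : ℝ) : ℂ) := by
    intro y
    rw [Finset.sum_comm]
    refine Finset.sum_congr rfl fun x _ => ?_
    push_cast
    rw [Finset.mul_sum]
    exact Finset.sum_congr rfl fun k _ => by ring
  exact (Finset.sum_congr rfl fun y _ => h3 y).trans Finset.sum_comm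

/-- `S` maps positive block matrices to positive block matrices. -/
theorem Fl.S_blocks {X Z Z' Y : Matrix C C ℂ} (h : (fromBlocks X Z Z' Y).PosSemidef) :
    (fromBlocks (F.S X) (F.S Z) (F.S Z') (F.S Y)).PosSemidef := by
  obtain ⟨G, hG⟩ := exists_eq_conjTranspose_mul_self h
  have e : fromBlocks X Z Z' Y = fromBlocks (G.toBlocks₁₁ᴴ * G.toBlocks₁₁ + G.toBlocks₂₁ᴴ * G.toBlocks₂₁)
      (G.toBlocks₁₁ᴴ * G.toBlocks₁₂ + G.toBlocks₂₁ᴴ * G.toBlocks₂₂)
      (G.toBlocks₁₂ᴴ * G.toBlocks₁₁ + G.toBlocks₂₂ᴴ * G.toBlocks₂₁)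
      (G.toBlocks₁₂ᴴ * G.toBlocks₁₂ + G.toBlocks₂₂ᴴ * G.toBlocks₂₂) := by
    rw [hG]
    conv_lhs => rw [← fromBlocks_toBlocks G]
    rw [fromBlocks_conjTranspose, fromBlocks_multiply]
  obtain ⟨e1, e2, e3, e4⟩ := fromBlocks_inj.mp e
  have key : ∀ a b : Matrix C C ℂ, (fromBlocks (F.S (aᴴ * a)) (F.S (aᴴ * b)) (F.S (bᴴ * a))
      (F.S (bᴴ * b))).PosSemidef := by
    intro a b
    rw [F.S_gram, F.S_gram, F.S_gram, F.S_gram, fromBlocks_sum]
    refine Matrix.posSemidef_sum _ fun u _ => ?_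
    have : fromBlocks ((F.W u a)ᴴ * F.W u a) ((F.W u a)ᴴ * F.W u b) ((F.W u b)ᴴ * F.W u a)
        ((F.W u b)ᴴ * F.W u b) = (fromBlocks (F.W u a) (F.W u b) 0 0)ᴴ *
          fromBlocks (F.W u a) (F.W u b) 0 0 := by
      rw [fromBlocks_conjTranspose, fromBlocks_multiply]
      simp
    rw [this]
    exact Matrix.posSemidef_conjTranspose_mul_self _
  rw [e1, e2, e3, e4]
  simp only [F.S_add]
  rw [← fromBlocks_add]
  exact (key _ _).add (key _ _)

theorem Fl.S_psd {X : Matrix C C ℂ} (h : X.PosSemidef) : (F.S X).PosSemidef := by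
  obtain ⟨G, hG⟩ := exists_eq_conjTranspose_mul_self h
  rw [hG, F.S_gram]
  exact Matrix.posSemidef_sum _ fun u _ => Matrix.posSemidef_conjTranspose_mul_self _

/-- The co-Schwarz inequality. -/
theorem Fl.coSchwarz (Y : Matrix C C ℂ) : (F.S (Yᴴ * Y) - F.S Y * (F.S Y)ᴴ).PosSemidef := by
  rw [F.S_gram, F.S_anti, ← Finset.sum_sub_distrib]
  refine Matrix.posSemidef_sum _ fun u _ => ?_
  have : (F.W u Y)ᴴ * F.W u Y - (F.sg u : ℂ) • ((F.W u Y)ᴴ * F.W u Y) =
      ((1 - F.sg u : ℝ) : ℂ) • ((F.W u Y)ᴴ * F.W u Y) := by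
    push_cast
    rw [sub_smul, one_smul]
  rw [this]
  refine (Matrix.posSemidef_conjTranspose_mul_self _).smul ?_
  have := (abs_le.mp (F.sg_le u)).2
  exact_mod_cast (by linarith : (0 : ℝ) ≤ 1 - F.sg u)

theorem Fl.S_trace (Z : Matrix C C ℂ) : (F.S Z).trace = Z.trace := by
  rw [Fl.S, trace_app]
  have h : ∀ p q, ∑ i, F.k p q i i = if p = q then (1 : ℂ) else 0 := by
    intro p q
    have := F.tp p q
    simp only [Fl.k]
    rw [← Complex.ofReal_sum, this]
    split <;> simp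
  simp only [h]
  simp [Matrix.trace]

/-- `S` is its own dual for `tr (X Y)`. -/
theorem Fl.S_dual (X Y : Matrix C C ℂ) : (F.S X * Y).trace = (X * F.S Y).trace := by
  rw [Matrix.trace_mul_comm, Fl.S, Fl.S, trace_mul_app, trace_mul_eq, Finset.sum_comm]
  refine Finset.sum_congr rfl fun p _ => Finset.sum_congr rfl fun q _ => ?_
  rw [mul_comm]
  congr 1
  rw [app, Finset.sum_comm]
  refine Finset.sum_congr rfl fun i _ => Finset.sum_congr rfl fun j _ => ?_
  simp only [Fl.k]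
  rw [F.sym]

theorem Fl.S_one : F.S (1 : Matrix C C ℂ) = 1 := by
  ext i j
  rw [Fl.S, app]
  have h : ∀ p, ∑ q, (1 : Matrix C C ℂ) p q * F.k p q i j = (F.t j i p p : ℂ) := by
    intro p
    rw [Finset.sum_eq_single p]
    · rw [Matrix.one_apply_eq, one_mul, Fl.k, F.sym]
    · intro b _ hb
      rw [Matrix.one_apply_ne (Ne.symm hb), zero_mul]
    · intro h
      exact absurd (Finset.mem_univ _) h
  rw [Finset.sum_congr rfl fun p _ => h p, ← Complex.ofReal_sum, F.tp, Matrix.one_apply]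
  by_cases hij : i = j
  · simp [hij]
  · have : ¬ j = i := fun h => hij h.symm
    simp [hij, this]

theorem Fl.S_conj (Z : Matrix C C ℂ) : F.S Zᴴ = (F.S Z)ᴴ := by
  have h1 := F.S_gram Z 1
  have h2 := F.S_gram 1 Z
  rw [mul_one] at h1
  rw [conjTranspose_one, one_mul] at h2
  rw [h1, h2, conjTranspose_sum]
  refine Finset.sum_congr rfl fun u _ => ?_
  rw [conjTranspose_mul, conjTranspose_conjTranspose]

end use

end Vale.Agent.P372.H132
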