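import Vale.Agent.P372.Bdl.B1

set_option linter.all false

/-! Maps on matrices given by kernels; tensor products over the sites. -/

open Matrix Finset
open scoped ComplexOrder

namespace Vale.Agent.P372.H132

section basic

variable {C : Type} [Fintype C]

/-- The linear map on matrices with kernel `k`. -/
def app (k : C → C → C → C → ℂ) (Z : Matrix C C ℂ) : Matrix C C ℂ :=
  fun i j => ∑ p, ∑ q, Z p q * k p q i j

/-- The kernel of the composition. -/
def kc (l m : C → C → C → C → ℂ) : C → C → C → C → ℂ :=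
  fun p q i j => ∑ a, ∑ b, m p q a b * l a b i j

theorem app_app (l m : C → C → C → C → ℂ) (Z : Matrix C C ℂ) :
    app l (app m Z) = app (kc l m) Z := by
  ext i j
  simp only [app, kc, Finset.sum_mul, Finset.mul_sum]
  calc ∑ a, ∑ b, ∑ p, ∑ q, Z p q * m p q a b * l a b i j
      = ∑ a, ∑ p, ∑ b, ∑ q, Z p q * m p q a b * l a b i j :=
        Finset.sum_congr rfl fun a _ => Finset.sum_comm
    _ = ∑ p, ∑ a, ∑ b, ∑ q, Z p q * m p q a b * l a b i j := Finset.sum_comm
    _ = ∑ p, ∑ a, ∑ q, ∑ b, Z p q * m p q a b * l a b i j :=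
        Finset.sum_congr rfl fun p _ => Finset.sum_congr rfl fun a _ => Finset.sum_comm
    _ = ∑ p, ∑ q, ∑ a, ∑ b, Z p q * m p q a b * l a b i j :=
        Finset.sum_congr rfl fun p _ => Finset.sum_comm
    _ = _ := by
        refine Finset.sum_congr rfl fun p _ => Finset.sum_congr rfl fun q _ =>
          Finset.sum_congr rfl fun a _ => Finset.sum_congr rfl fun b _ => by ring

theorem app_add (k : C → C → C → C → ℂ) (X Y : Matrix C C ℂ) :
    app k (X + Y) = app k X + app k Y := by
  ext i j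
  simp only [app, Matrix.add_apply, add_mul, Finset.sum_add_distrib]

theorem app_smul (k : C → C → C → C → ℂ) (c : ℂ) (X : Matrix C C ℂ) :
    app k (c • X) = c • app k X := by
  ext i j
  simp only [app, Matrix.smul_apply, smul_eq_mul, Finset.mul_sum, mul_assoc]

theorem app_zero (k : C → C → C → C → ℂ) : app k (0 : Matrix C C ℂ) = 0 := by
  ext i j
  simp [app]

theorem app_sum {ι : Type*} (s : Finset ι) (k : C → C → C → C → ℂ) (X : ι → Matrix C C ℂ) :
    app k (∑ x ∈ s, X x) = ∑ x ∈ s, app k (X x) := by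
  classical
  induction s using Finset.induction_on with
  | empty => simp [app_zero]
  | insert a s ha ih => rw [Finset.sum_insert ha, Finset.sum_insert ha, app_add, ih]

theorem app_neg (k : C → C → C → C → ℂ) (X : Matrix C C ℂ) : app k (-X) = -app k X := by
  have h := app_smul k (-1) X
  simpa using h

theorem app_sub (k : C → C → C → C → ℂ) (X Y : Matrix C C ℂ) :
    app k (X - Y) = app k X - app k Y := by
  rw [sub_eq_add_neg, app_add, app_neg, ← sub_eq_add_neg]

theorem app_ksum {ι : Type*} (s : Finset ι) (k : ι → C → C → C → C → ℂ) (X : Matrix C C ℂ) :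
    app (fun p q i j => ∑ x ∈ s, k x p q i j) X = ∑ x ∈ s, app (k x) X := by
  ext i j
  rw [Matrix.sum_apply]
  simp only [app, Finset.mul_sum]
  calc ∑ p, ∑ q, ∑ x ∈ s, X p q * k x p q i j
      = ∑ p, ∑ x ∈ s, ∑ q, X p q * k x p q i j :=
        Finset.sum_congr rfl fun p _ => Finset.sum_comm
    _ = ∑ x ∈ s, ∑ p, ∑ q, X p q * k x p q i j := Finset.sum_comm

theorem app_ksmul (c : ℂ) (k : C → C → C → C → ℂ) (X : Matrix C C ℂ) :
    app (fun p q i j => c * k p q i j) X = c • app k X := by
  ext i j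
  simp only [app, Matrix.smul_apply, smul_eq_mul, Finset.mul_sum]
  exact Finset.sum_congr rfl fun p _ => Finset.sum_congr rfl fun q _ => by ring

/-- `tr (M * app k Z)` for a kernel. -/
theorem trace_mul_app (M : Matrix C C ℂ) (k : C → C → C → C → ℂ) (Z : Matrix C C ℂ) :
    (M * app k Z).trace = ∑ p, ∑ q, Z p q * ∑ i, ∑ j, M j i * k p q i j := by
  simp only [Matrix.trace, Matrix.diag, Matrix.mul_apply, app, Finset.mul_sum]
  calc ∑ j, ∑ i, ∑ p, ∑ q, M j i * (Z p q * k p q i j)
      = ∑ j, ∑ p, ∑ i, ∑ q, M j i * (Z p q * k p q i j) :=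
        Finset.sum_congr rfl fun a _ => Finset.sum_comm
    _ = ∑ p, ∑ j, ∑ i, ∑ q, M j i * (Z p q * k p q i j) := Finset.sum_comm
    _ = ∑ p, ∑ j, ∑ q, ∑ i, M j i * (Z p q * k p q i j) :=
        Finset.sum_congr rfl fun p _ => Finset.sum_congr rfl fun a _ => Finset.sum_comm
    _ = ∑ p, ∑ q, ∑ j, ∑ i, M j i * (Z p q * k p q i j) :=
        Finset.sum_congr rfl fun p _ => Finset.sum_comm
    _ = ∑ p, ∑ q, ∑ i, ∑ j, M j i * (Z p q * k p q i j) :=
        Finset.sum_congr rfl fun p _ => Finset.sum_congr rfl fun q _ => Finset.sum_comm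
    _ = _ := by
        refine Finset.sum_congr rfl fun p _ => Finset.sum_congr rfl fun q _ =>
          Finset.sum_congr rfl fun a _ => Finset.sum_congr rfl fun b _ => by ring

theorem trace_app (k : C → C → C → C → ℂ) (Z : Matrix C C ℂ) :
    (app k Z).trace = ∑ p, ∑ q, Z p q * ∑ i, k p q i i := by
  simp only [Matrix.trace, Matrix.diag, app, Finset.mul_sum]
  calc ∑ i, ∑ p, ∑ q, Z p q * k p q i i
      = ∑ p, ∑ i, ∑ q, Z p q * k p q i i := Finset.sum_comm
    _ = ∑ p, ∑ q, ∑ i, Z p q * k p q i i :=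
        Finset.sum_congr rfl fun p _ => Finset.sum_comm

theorem trace_mul_eq (M Z : Matrix C C ℂ) : (M * Z).trace = ∑ p, ∑ q, Z p q * M q p := by
  simp only [Matrix.trace, Matrix.diag, Matrix.mul_apply]
  rw [Finset.sum_comm]
  exact Finset.sum_congr rfl fun p _ => Finset.sum_congr rfl fun q _ => by ring

/-- A kernel with Kraus operators. -/
def CP (k : C → C → C → C → ℂ) : Prop :=
  ∃ (κ : Type) (_ : Fintype κ) (K : κ → Matrix C C ℂ),
    ∀ p q i j, k p q i j = ∑ x, K x i p * star (K x j q)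

theorem CP.app_eq {k : C → C → C → C → ℂ} {κ : Type} [Fintype κ] {K : κ → Matrix C C ℂ}
    (h : ∀ p q i j, k p q i j = ∑ x, K x i p * star (K x j q)) (Z : Matrix C C ℂ) :
    app k Z = ∑ x, K x * Z * (K x)ᴴ := by
  ext i j
  rw [Matrix.sum_apply]
  simp only [app, h, Matrix.mul_apply, Matrix.conjTranspose_apply, Finset.mul_sum, Finset.sum_mul]
  calc ∑ p, ∑ q, ∑ x, Z p q * (K x i p * star (K x j q))
      = ∑ p, ∑ x, ∑ q, Z p q * (K x i p * star (K x j q)) :=
        Finset.sum_congr rfl fun p _ => Finset.sum_comm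
    _ = ∑ x, ∑ p, ∑ q, Z p q * (K x i p * star (K x j q)) := Finset.sum_comm
    _ = ∑ x, ∑ q, ∑ p, Z p q * (K x i p * star (K x j q)) :=
        Finset.sum_congr rfl fun p _ => Finset.sum_comm
    _ = _ := by
        refine Finset.sum_congr rfl fun p _ => Finset.sum_congr rfl fun q _ =>
          Finset.sum_congr rfl fun a _ => by ring

theorem fromBlocks_conj [DecidableEq C] (K X Z Z' Y : Matrix C C ℂ) :
    fromBlocks (K * X * Kᴴ) (K * Z * Kᴴ) (K * Z' * Kᴴ) (K * Y * Kᴴ) =
      fromBlocks K 0 0 K * fromBlocks X Z Z' Y * (fromBlocks K 0 0 K)ᴴ := by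
  rw [fromBlocks_conjTranspose, fromBlocks_multiply, fromBlocks_multiply]
  simp

theorem fromBlocks_sum {ι : Type*} (s : Finset ι) (X Z Z' Y : ι → Matrix C C ℂ) :
    fromBlocks (∑ x ∈ s, X x) (∑ x ∈ s, Z x) (∑ x ∈ s, Z' x) (∑ x ∈ s, Y x) =
      ∑ x ∈ s, fromBlocks (X x) (Z x) (Z' x) (Y x) := by
  ext i j
  rcases i with i | i <;> rcases j with j | j <;> simp [Matrix.sum_apply]

theorem CP.blocks [DecidableEq C] {k : C → C → C → C → ℂ} (hk : CP k) {X Z Z' Y : Matrix C C ℂ}
    (h : (fromBlocks X Z Z' Y).PosSemidef) :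
    (fromBlocks (app k X) (app k Z) (app k Z') (app k Y)).PosSemidef := by
  obtain ⟨κ, _, K, hK⟩ := hk
  rw [CP.app_eq hK, CP.app_eq hK, CP.app_eq hK, CP.app_eq hK, fromBlocks_sum]
  refine Matrix.posSemidef_sum _ fun x _ => ?_
  rw [fromBlocks_conj]
  exact h.mul_mul_conjTranspose_same _

theorem CP.psd {k : C → C → C → C → ℂ} (hk : CP k) {X : Matrix C C ℂ}
    (h : X.PosSemidef) : (app k X).PosSemidef := by
  obtain ⟨κ, _, K, hK⟩ := hk
  rw [CP.app_eq hK]
  refine Matrix.posSemidef_sum _ fun x _ => ?_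
  exact h.mul_mul_conjTranspose_same _

/-- The kernel of the identity. -/
def idk [DecidableEq C] : C → C → C → C → ℂ := fun p q i j =>
  (if p = i then 1 else 0) * (if q = j then 1 else 0)

theorem CP.idk [DecidableEq C] : CP (idk (C := C)) := by
  refine ⟨Unit, inferInstance, fun _ => 1, fun p q i j => ?_⟩
  simp only [H132.idk, Finset.univ_unique, Finset.sum_singleton, Matrix.one_apply]
  by_cases h : p = i
  · by_cases h' : q = j
    · subst h
      subst h'
      simp
    · have h2 : ¬ j = q := fun e => h' e.symm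
      simp [h', h2]
  · have h2 : ¬ i = p := fun e => h e.symm
    simp [h, h2]

/-- The kernel of `Z ↦ tr (Q Z) d⁻¹`. -/
noncomputable def ek [DecidableEq C] (Q : Matrix C C ℂ) : C → C → C → C → ℂ := fun p q i j =>
  Q q p * ((if i = j then 1 else 0) * (Fintype.card C : ℂ)⁻¹)

theorem CP.ek [DecidableEq C] {Q : Matrix C C ℂ} (hQ : Q.PosSemidef) : CP (ek Q) := by
  obtain ⟨N, hN⟩ := exists_eq_conjTranspose_mul_self hQ
  refine ⟨C × C, inferInstance, fun x i p => (if i = x.1 then 1 else 0) * N x.2 p *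
    ((√(Fintype.card C : ℝ))⁻¹ : ℝ), fun p q i j => ?_⟩
  have h1 : (((√(Fintype.card C : ℝ))⁻¹ : ℝ) : ℂ) * (((√(Fintype.card C : ℝ))⁻¹ : ℝ) : ℂ) =
      (Fintype.card C : ℂ)⁻¹ := by
    rw [← Complex.ofReal_mul, ← mul_inv, Real.mul_self_sqrt (Nat.cast_nonneg _)]
    push_cast
    rfl
  rw [Fintype.sum_prod_type]
  simp only [H132.ek, hN, Matrix.mul_apply, Matrix.conjTranspose_apply, star_mul', Finset.sum_mul]
  rw [Finset.sum_comm]
  refine Finset.sum_congr rfl fun y _ => ?_
  rw [Finset.sum_eq_single i]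
  · by_cases hij : i = j
    · subst hij
      simp only [if_true, star_one, one_mul, RCLike.star_def, Complex.conj_ofReal]
      rw [← h1]
      ring
    · have : ¬ (j = i) := fun h => hij h.symm
      simp [hij, this]
  · intro b _ hb
    have : ¬ (i = b) := fun h => hb h.symm
    simp [this]
  · intro h
    exact absurd (Finset.mem_univ _) h

end basic

section sites

variable {A B : Type} [Fintype A] [DecidableEq A] [Fintype B] [DecidableEq B] {n : ℕ}

/-- The pair of indices at a site. -/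
def at' (p : (Fin n → A) × (Fin n → B)) (s : Fin n) : A × B := (p.1 s, p.2 s)

theorem at'_inj {p q : (Fin n → A) × (Fin n → B)} : (∀ s, at' p s = at' q s) ↔ p = q := by
  constructor
  · intro h
    refine Prod.ext (funext fun s => ?_) (funext fun s => ?_)
    · exact congrArg Prod.fst (h s)
    · exact congrArg Prod.snd (h s)
  · rintro rfl s
    rfl

theorem sum_prod {R : Type*} [CommSemiring R] (f : Fin n → A × B → R) :
    ∑ p : (Fin n → A) × (Fin n → B), ∏ s, f s (at' p s) = ∏ s, ∑ c, f s c := by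
  rw [Finset.prod_univ_sum, Fintype.piFinset_univ]
  refine (Fintype.sum_equiv (Equiv.arrowProdEquivProdArrow (Fin n) (fun _ => A) (fun _ => B)) _ _ ?_).symm
  intro g
  rfl

/-- The tensor product of site kernels. -/
def pk (l : Fin n → (A × B → A × B → A × B → A × B → ℂ)) :
    ((Fin n → A) × (Fin n → B)) → ((Fin n → A) × (Fin n → B)) → ((Fin n → A) × (Fin n → B)) →
      ((Fin n → A) × (Fin n → B)) → ℂ :=
  fun p q i j => ∏ s, l s (at' p s) (at' q s) (at' i s) (at' j s)

theorem kc_pk (l m : Fin n → (A × B → A × B → A × B → A × B → ℂ)) :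
    kc (pk l) (pk m) = pk fun s => kc (l s) (m s) := by
  funext p q i j
  simp only [kc, pk]
  have h1 : ∀ a : (Fin n → A) × (Fin n → B), ∑ b : (Fin n → A) × (Fin n → B),
      (∏ s, m s (at' p s) (at' q s) (at' a s) (at' b s)) *
        ∏ s, l s (at' a s) (at' b s) (at' i s) (at' j s) =
      ∏ s, ∑ b, m s (at' p s) (at' q s) (at' a s) b * l s (at' a s) b (at' i s) (at' j s) := by
    intro a
    rw [← sum_prod fun s b => m s (at' p s) (at' q s) (at' a s) b *
      l s (at' a s) b (at' i s) (at' j s)]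
    exact Finset.sum_congr rfl fun b _ => Finset.prod_mul_distrib.symm
  simp only [h1]
  exact sum_prod fun s a => ∑ b, m s (at' p s) (at' q s) a b * l s a b (at' i s) (at' j s)

theorem CP.pk {l : Fin n → (A × B → A × B → A × B → A × B → ℂ)} (h : ∀ s, CP (l s)) :
    CP (pk l) := by
  choose κ fκ K hK using h
  refine ⟨∀ s, κ s, inferInstance, fun x i p => ∏ s, K s (x s) (at' i s) (at' p s),
    fun p q i j => ?_⟩
  simp only [H132.pk, hK, star_prod]
  rw [Finset.prod_univ_sum, Fintype.piFinset_univ]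
  exact Finset.sum_congr rfl fun x _ => Finset.prod_mul_distrib

/-- The tensor product of matrices over the sites. -/
def tm (M : Fin n → Matrix (A × B) (A × B) ℂ) :
    Matrix ((Fin n → A) × (Fin n → B)) ((Fin n → A) × (Fin n → B)) ℂ :=
  fun p q => ∏ s, M s (at' p s) (at' q s)

/-- `tr (M app_l Z)` for a tensor product. -/
theorem trace_tm_pk (M : Fin n → Matrix (A × B) (A × B) ℂ)
    (l : Fin n → (A × B → A × B → A × B → A × B → ℂ))
    (Z : Matrix ((Fin n → A) × (Fin n → B)) ((Fin n → A) × (Fin n → B)) ℂ) :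
    (tm M * app (pk l) Z).trace =
      (tm (fun s q p => ∑ i, ∑ j, M s j i * l s p q i j) * Z).trace := by
  rw [trace_mul_app, trace_mul_eq]
  refine Finset.sum_congr rfl fun p _ => Finset.sum_congr rfl fun q _ => ?_
  congr 1
  simp only [tm, pk]
  have h1 : ∀ i : (Fin n → A) × (Fin n → B), ∑ j : (Fin n → A) × (Fin n → B),
      (∏ s, M s (at' j s) (at' i s)) * ∏ s, l s (at' p s) (at' q s) (at' i s) (at' j s) =
      ∏ s, ∑ j, M s j (at' i s) * l s (at' p s) (at' q s) (at' i s) j := by
    intro i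
    rw [← sum_prod fun s j => M s j (at' i s) * l s (at' p s) (at' q s) (at' i s) j]
    exact Finset.sum_congr rfl fun b _ => Finset.prod_mul_distrib.symm
  simp only [h1]
  exact sum_prod fun s i => ∑ j, M s j i * l s (at' p s) (at' q s) i j

theorem tm_one : tm (fun _ : Fin n => (1 : Matrix (A × B) (A × B) ℂ)) = 1 := by
  ext p q
  rw [tm]
  by_cases h : p = q
  · subst h
    simp
  · rw [Matrix.one_apply_ne h]
    have h2 : ∃ s, at' p s ≠ at' q s := by
      by_contra h3
      push Not at h3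
      exact h (at'_inj.mp h3)
    obtain ⟨s, hs⟩ := h2
    exact Finset.prod_eq_zero (Finset.mem_univ s) (Matrix.one_apply_ne hs)

/-- Expansion over the subsets of the sites. -/
theorem tm_add (M N : Fin n → Matrix (A × B) (A × B) ℂ) :
    tm (fun s => M s + N s) = ∑ U : Finset (Fin n), tm (fun s => if s ∈ U then M s else N s) := by
  ext p q
  rw [Matrix.sum_apply]
  simp only [tm, Matrix.add_apply]
  rw [Finset.prod_add, Finset.powerset_univ]
  refine Finset.sum_congr rfl fun U _ => ?_
  rw [← Finset.prod_mul_prod_compl U]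
  congr 1
  · exact Finset.prod_congr rfl fun s hs => by simp [hs]
  · rw [Finset.compl_eq_univ_sdiff]
    exact Finset.prod_congr rfl fun s hs => by
      have : s ∉ U := (Finset.mem_sdiff.mp hs).2
      simp [this]

theorem tm_smul (c : Fin n → ℂ) (M : Fin n → Matrix (A × B) (A × B) ℂ) :
    tm (fun s => c s • M s) = (∏ s, c s) • tm M := by
  ext p q
  simp only [tm, Matrix.smul_apply, smul_eq_mul, Finset.prod_mul_distrib]

theorem pk_add (k l : Fin n → (A × B → A × B → A × B → A × B → ℂ)) :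
    pk (fun s p q i j => k s p q i j + l s p q i j) =
      fun p q i j => ∑ U : Finset (Fin n), pk (fun s => if s ∈ U then k s else l s) p q i j := by
  funext p q i j
  simp only [pk]
  rw [Finset.prod_add, Finset.powerset_univ]
  refine Finset.sum_congr rfl fun U _ => ?_
  rw [← Finset.prod_mul_prod_compl U]
  congr 1
  · exact Finset.prod_congr rfl fun s hs => by simp [hs]
  · rw [Finset.compl_eq_univ_sdiff]
    exact Finset.prod_congr rfl fun s hs => by
      have : s ∉ U := (Finset.mem_sdiff.mp hs).2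
      simp [this]

end sites

end Vale.Agent.P372.H132
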