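import Vale.Agent.P372.H132.Pauli

set_option linter.all false

/-! The fermionic noise has the strong flip property. -/

open Matrix Finset
open scoped ComplexOrder

namespace Vale.Agent.P372.H132

variable {m : ℕ}

/-- The kernel of the noise. -/
noncomputable def tk (p q i j : V m) : ℝ := ∑ g : G m, mu g * (xr g p q * xr g i j) / 2 ^ m

/-- The kernels of the auxiliary maps. -/
noncomputable def wk (c : Ft m → Bool) (p q k i : V m) : ℝ :=
  ∑ g : G m, YY c g * (xr g p q * xr g k i) / 2 ^ m

theorem rsum3 {α β γ : Type*} [Fintype α] [Fintype β] [Fintype γ] (f : α → β → γ → ℝ) :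
    ∑ c, ∑ g, ∑ h, f c g h = ∑ g, ∑ h, ∑ c, f c g h :=
  calc ∑ c, ∑ g, ∑ h, f c g h = ∑ g, ∑ c, ∑ h, f c g h := Finset.sum_comm
    _ = ∑ g, ∑ h, ∑ c, f c g h := Finset.sum_congr rfl fun _ _ => Finset.sum_comm

theorem wk_sum (c : Ft m → Bool) (p q r s i j : V m) :
    ∑ k, wk c p q k i * wk c r s k j = ∑ g : G m, ∑ h : G m, (YY c g * YY c h) *
      (chi (dt (vv g) (uu g + uu h)) * xr (g + h) i j * (xr g p q * xr h r s)) / (2 ^ m * 2 ^ m) := by
  have h1 : ∀ k, wk c p q k i * wk c r s k j = ∑ g : G m, ∑ h : G m,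
      (YY c g * YY c h) * (xr g p q * xr h r s) * (xr g k i * xr h k j) / (2 ^ m * 2 ^ m) := by
    intro k
    rw [wk, wk, Finset.sum_mul_sum]
    refine Finset.sum_congr rfl fun g _ => Finset.sum_congr rfl fun h _ => ?_
    rw [div_mul_div_comm]
    congr 1
    ring
  simp only [h1]
  rw [rsum3]
  refine Finset.sum_congr rfl fun g _ => Finset.sum_congr rfl fun h _ => ?_
  rw [← Finset.sum_div, ← Finset.mul_sum, xr_tmul]
  congr 1
  ring

theorem k1_aux (p q r s i j : V m) :
    ∑ c : Ft m → Bool, ∑ k, wk c p q k i * wk c r s k j = if p = r then tk q s i j else 0 := by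
  simp only [wk_sum]
  rw [rsum3]
  have h1 : ∀ g h : G m, ∑ c : Ft m → Bool, (YY c g * YY c h) *
      (chi (dt (vv g) (uu g + uu h)) * xr (g + h) i j * (xr g p q * xr h r s)) / (2 ^ m * 2 ^ m) =
      mu (g + h) * (chi (dt (vv g) (uu (g + h))) * xr (g + h) i j * (xr g p q * xr h r s)) /
        (2 ^ m * 2 ^ m) := by
    intro g h
    rw [← Finset.sum_div, ← Finset.sum_mul, YY_pos, uu_add]
  simp only [h1]
  have h2 : ∀ g : G m, ∑ h : G m,
      mu (g + h) * (chi (dt (vv g) (uu (g + h))) * xr (g + h) i j * (xr g p q * xr h r s)) /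
        (2 ^ m * 2 ^ m) = ∑ k : G m,
      mu k * (chi (dt (vv g) (uu k)) * xr k i j * (xr g p q * xr (g + k) r s)) /
        (2 ^ m * 2 ^ m) := by
    intro g
    refine Fintype.sum_equiv (Equiv.addLeft g) _ _ ?_
    intro h
    simp only [Equiv.coe_addLeft]
    rw [← add_assoc, gadd_self, zero_add]
  simp only [h2]
  have h3 : ∀ g k : G m,
      mu k * (chi (dt (vv g) (uu k)) * xr k i j * (xr g p q * xr (g + k) r s)) /
        (2 ^ m * 2 ^ m) = ∑ l, mu k * xr k i j * xr k l s * (xr g p q * xr g r l) /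
        (2 ^ m * 2 ^ m) := by
    intro g k
    rw [← Finset.sum_div]
    congr 1
    have : ∀ l, mu k * xr k i j * xr k l s * (xr g p q * xr g r l) =
        mu k * xr k i j * xr g p q * (xr g r l * xr k l s) := fun l => by ring
    simp only [this]
    rw [← Finset.mul_sum, xr_mul]
    ring
  simp only [h3]
  rw [rsum3]
  have h4 : ∀ k : G m, ∀ l : V m,
      ∑ g : G m, mu k * xr k i j * xr k l s * (xr g p q * xr g r l) / (2 ^ m * 2 ^ m) =
      if p = r ∧ q = l then mu k * xr k i j * xr k l s / 2 ^ m else 0 := by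
    intro k l
    rw [← Finset.sum_div, ← Finset.mul_sum, xr_comp]
    split
    · field_simp
    · simp
  simp only [h4]
  by_cases h : p = r
  · subst h
    rw [if_pos rfl, tk]
    refine Finset.sum_congr rfl fun k _ => ?_
    simp only [true_and]
    rw [Finset.sum_ite_eq univ q, if_pos (Finset.mem_univ _)]
    congr 1
    ring
  · simp [h]

theorem k2_aux (p q r s i j : V m) :
    ∑ c : Ft m → Bool, (∏ l, sb (c l)) * ∑ k, wk c p q k i * wk c r s k j =
      ∑ k, tk r s i k * tk p q j k := by
  simp only [wk_sum, Finset.mul_sum]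
  rw [rsum3]
  have h1 : ∀ g h : G m, ∑ c : Ft m → Bool, (∏ l, sb (c l)) * ((YY c g * YY c h) *
      (chi (dt (vv g) (uu g + uu h)) * xr (g + h) i j * (xr g p q * xr h r s)) / (2 ^ m * 2 ^ m)) =
      mu g * mu h * (chi (dt (vv g) (uu g)) * chi (dt (vv h) (uu g)) * xr (g + h) i j) *
        (xr g p q * xr h r s) / (2 ^ m * 2 ^ m) := by
    intro g h
    have : ∀ c : Ft m → Bool, (∏ l, sb (c l)) * ((YY c g * YY c h) *
      (chi (dt (vv g) (uu g + uu h)) * xr (g + h) i j * (xr g p q * xr h r s)) / (2 ^ m * 2 ^ m)) =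
      (∏ l, sb (c l)) * (YY c g * YY c h) *
        ((chi (dt (vv g) (uu g + uu h)) * xr (g + h) i j * (xr g p q * xr h r s)) /
          (2 ^ m * 2 ^ m)) := fun c => by ring
    simp only [this]
    rw [← Finset.sum_mul, YY_neg, dt_add_right, chi_add, mul_div_assoc']
    congr 1
    have e := chi_mul_self (dt (vv g) (uu h))
    linear_combination (mu g * mu h * chi (dt (vv h) (uu g)) * chi (dt (vv g) (uu g)) *
      xr (g + h) i j * xr g p q * xr h r s) * e
  simp only [h1]
  have h2 : ∀ k, tk r s i k * tk p q j k = ∑ g : G m, ∑ h : G m,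
      mu g * mu h * (xr g p q * xr h r s) * (xr h i k * xr g j k) / (2 ^ m * 2 ^ m) := by
    intro k
    rw [mul_comm, tk, tk, Finset.sum_mul_sum]
    refine Finset.sum_congr rfl fun g _ => Finset.sum_congr rfl fun h _ => ?_
    rw [div_mul_div_comm]
    congr 1
    ring
  simp only [h2]
  rw [rsum3]
  refine Finset.sum_congr rfl fun g _ => Finset.sum_congr rfl fun h _ => ?_
  rw [← Finset.sum_div, ← Finset.mul_sum, xr_mult]
  congr 1
  ring

/-- The fermionic noise on `m` qubits. -/
noncomputable def FN (m : ℕ) : Fl (V m) where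
  U := Ft m → Bool
  fU := inferInstance
  t := tk
  w := wk
  sg := fun c => ∏ l, sb (c l)
  sg_le := fun c => by
    rw [Finset.abs_prod]
    refine Finset.prod_le_one (fun _ _ => abs_nonneg _) fun l _ => ?_
    unfold sb
    split <;> simp
  k1 := k1_aux
  k2 := k2_aux
  sym := fun p q i j => by
    refine Finset.sum_congr rfl fun g _ => ?_
    rw [xr_symm g p q, xr_symm g i j]
    have e := chi_mul_self (dt (vv g) (uu g))
    congr 1
    linear_combination (-(mu g * xr g p q * xr g i j)) * e
  tp := fun p q => by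
    simp only [tk]
    rw [Finset.sum_comm]
    have h1 : ∀ g : G m, ∑ i, mu g * (xr g p q * xr g i i) / 2 ^ m =
        if g = 0 then mu g * xr g p q else 0 := by
      intro g
      have : ∀ i, mu g * (xr g p q * xr g i i) / 2 ^ m = mu g * xr g p q / 2 ^ m * xr g i i :=
        fun i => by ring
      simp only [this]
      rw [← Finset.mul_sum, xr_trace]
      split
      · field_simp
      · simp
    simp only [h1]
    rw [Finset.sum_ite_eq' univ (0 : G m), if_pos (Finset.mem_univ _), mu_zero, one_mul, xr_zero]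

end Vale.Agent.P372.H132
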