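import Vale.Agent.P372.H132.Flip

set_option linter.all false

/-! The real Pauli matrices and the fermionic noise. -/

open Matrix Finset
open scoped ComplexOrder

namespace Vale.Agent.P372.H132

/-- The sign. -/
def chi (x : ZMod 2) : ℝ := if x = 0 then 1 else -1

theorem chi_add (x y : ZMod 2) : chi (x + y) = chi x * chi y := by
  have h : ∀ x y : ZMod 2, (x + y = 0) ↔ (x = y) := by decide
  unfold chi
  rcases (show ∀ x : ZMod 2, x = 0 ∨ x = 1 by decide) x with rfl | rfl <;>
  rcases (show ∀ x : ZMod 2, x = 0 ∨ x = 1 by decide) y with rfl | rfl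
  · simp
  · simp
  · simp
  · have : (1 + 1 : ZMod 2) = 0 := by decide
    simp [this]

@[simp] theorem chi_zero : chi 0 = 1 := by simp [chi]

theorem chi_mul_self (x : ZMod 2) : chi x * chi x = 1 := by
  unfold chi
  split <;> norm_num

theorem chi_sum {ι : Type*} (s : Finset ι) (f : ι → ZMod 2) :
    chi (∑ i ∈ s, f i) = ∏ i ∈ s, chi (f i) := by
  classical
  induction s using Finset.induction_on with
  | empty => simp
  | insert a s ha ih => rw [Finset.sum_insert ha, Finset.prod_insert ha, chi_add, ih]

theorem z2 (x : ZMod 2) : x + x = 0 := by revert x; decide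

section model

variable (m : ℕ)

/-- Basis indices of `m` qubits. -/
abbrev V := Fin m → ZMod 2

/-- Indices of the monomials of the `2 m` generators. -/
abbrev G := (Fin m → ZMod 2) × (Fin m → ZMod 2)

variable {m}

/-- The pairing. -/
def dt (v q : V m) : ZMod 2 := ∑ i, v i * q i

theorem dt_add_left (v w q : V m) : dt (v + w) q = dt v q + dt w q := by
  simp [dt, add_mul, Finset.sum_add_distrib]

theorem dt_add_right (v q r : V m) : dt v (q + r) = dt v q + dt v r := by
  simp [dt, mul_add, Finset.sum_add_distrib]

/-- The flip part. -/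
def uu (g : G m) : V m := fun i => g.1 i + g.2 i

/-- The sign part. -/
def vv (g : G m) : V m := fun i => g.2 i + ∑ j, if i < j then g.1 j + g.2 j else 0

theorem uu_add (g h : G m) : uu (g + h) = uu g + uu h := by
  funext i
  simp only [uu, Prod.fst_add, Prod.snd_add, Pi.add_apply]
  ring

theorem vv_add (g h : G m) : vv (g + h) = vv g + vv h := by
  funext i
  simp only [vv, Prod.fst_add, Prod.snd_add, Pi.add_apply]
  have : (∑ j, if i < j then g.1 j + h.1 j + (g.2 j + h.2 j) else 0) =
      (∑ j, if i < j then g.1 j + g.2 j else 0) + ∑ j, if i < j then h.1 j + h.2 j else 0 := by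
    rw [← Finset.sum_add_distrib]
    refine Finset.sum_congr rfl fun j _ => ?_
    split
    · ring
    · simp
  rw [this]
  ring

/-- The real Pauli matrix of the monomial `g`. -/
def xr (g : G m) (p q : V m) : ℝ := if p = q + uu g then chi (dt (vv g) q) else 0

theorem vadd_self (u : V m) : u + u = 0 := by
  funext i
  exact z2 _

theorem vadd_cancel (q u : V m) : q + u + u = q := by
  rw [add_assoc, vadd_self, add_zero]

theorem veq_iff (p q u : V m) : p = q + u ↔ q = p + u := by
  constructor
  · rintro rfl
    rw [vadd_cancel]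
  · rintro rfl
    rw [vadd_cancel]

/-- `x_g x_h`. -/
theorem xr_mul (g h : G m) (r s : V m) :
    ∑ l, xr g r l * xr h l s = chi (dt (vv g) (uu h)) * xr (g + h) r s := by
  rw [Finset.sum_eq_single (s + uu h)]
  · simp only [xr, uu_add, vv_add, if_true]
    have : (r = s + uu h + uu g) ↔ (r = s + (uu g + uu h)) := by
      rw [add_assoc, add_comm (uu h)]
    by_cases hr : r = s + (uu g + uu h)
    · rw [if_pos (this.mpr hr), if_pos hr, dt_add_right, dt_add_left, chi_add, chi_add]
      ring
    · rw [if_neg (fun hh => hr (this.mp hh)), if_neg hr]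
      ring
  · intro b _ hb
    simp only [xr]
    rw [if_neg hb, mul_zero]
  · intro h
    exact absurd (Finset.mem_univ _) h

/-- Transposition. -/
theorem xr_symm (g : G m) (p q : V m) : xr g q p = chi (dt (vv g) (uu g)) * xr g p q := by
  simp only [xr]
  by_cases h : p = q + uu g
  · rw [if_pos h, if_pos ((veq_iff p q _).mp h), h, dt_add_right, chi_add]
    ring
  · rw [if_neg h, if_neg (fun hh => h ((veq_iff q p _).mp hh))]
    ring

/-- `x_gᵀ x_h`. -/
theorem xr_tmul (g h : G m) (i j : V m) :
    ∑ k, xr g k i * xr h k j = chi (dt (vv g) (uu g + uu h)) * xr (g + h) i j := by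
  have : ∀ k, xr g k i * xr h k j = chi (dt (vv g) (uu g)) * (xr g i k * xr h k j) := by
    intro k
    rw [xr_symm g i k]
    ring
  simp only [this]
  rw [← Finset.mul_sum, xr_mul, dt_add_right, chi_add]
  ring

/-- `x_h x_gᵀ`. -/
theorem xr_mult (g h : G m) (i j : V m) :
    ∑ k, xr h i k * xr g j k = chi (dt (vv g) (uu g)) * chi (dt (vv h) (uu g)) *
      xr (g + h) i j := by
  have : ∀ k, xr h i k * xr g j k = chi (dt (vv g) (uu g)) * (xr h i k * xr g k j) := by
    intro k
    rw [xr_symm g k j]
    ring
  simp only [this]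
  rw [← Finset.mul_sum, xr_mul, add_comm h g]
  ring

/-- The symplectic form in the coordinates of the monomials. -/
theorem sympl (g h : G m) : dt (vv g) (uu h) + dt (vv h) (uu g) =
    ∑ i, g.1 i * h.1 i + ∑ i, g.2 i * h.2 i +
      (∑ i, (g.1 i + g.2 i)) * ∑ i, (h.1 i + h.2 i) := by
  have e1 : (∑ i, (g.1 i + g.2 i)) * ∑ i, (h.1 i + h.2 i) =
      ∑ i, (uu g i * uu h i + (∑ j, if i < j then uu g j else 0) * uu h i +
        (∑ j, if i < j then uu h j else 0) * uu g i) := by
    have s1 : ∀ i j : Fin m, uu g j * uu h i = (if i = j then uu g j * uu h i else 0) +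
        (if i < j then uu g j * uu h i else 0) + (if j < i then uu g j * uu h i else 0) := by
      intro i j
      rcases lt_trichotomy i j with h1 | h1 | h1
      · simp [h1, h1.ne, h1.le, not_lt_of_gt h1]
      · subst h1; simp
      · simp [h1, h1.ne', not_lt_of_gt h1]
    calc (∑ i, (g.1 i + g.2 i)) * ∑ i, (h.1 i + h.2 i) = ∑ i, ∑ j, uu g j * uu h i := by
          rw [mul_comm, Finset.sum_mul_sum]
          refine Finset.sum_congr rfl fun i _ => Finset.sum_congr rfl fun j _ => ?_
          simp only [uu]
          ring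
      _ = ∑ i, ∑ j, ((if i = j then uu g j * uu h i else 0) +
            (if i < j then uu g j * uu h i else 0) + (if j < i then uu g j * uu h i else 0)) :=
          Finset.sum_congr rfl fun i _ => Finset.sum_congr rfl fun j _ => s1 i j
      _ = (∑ i, ∑ j, if i = j then uu g j * uu h i else 0) +
            (∑ i, ∑ j, if i < j then uu g j * uu h i else 0) +
            ∑ i, ∑ j, if j < i then uu g j * uu h i else 0 := by
          simp only [Finset.sum_add_distrib]
      _ = (∑ i, uu g i * uu h i) + (∑ i, (∑ j, if i < j then uu g j else 0) * uu h i) +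
            ∑ i, (∑ j, if i < j then uu h j else 0) * uu g i := by
          congr 1
          · congr 1
            · refine Finset.sum_congr rfl fun i _ => ?_
              simp
            · refine Finset.sum_congr rfl fun i _ => ?_
              rw [Finset.sum_mul]
              refine Finset.sum_congr rfl fun j _ => ?_
              split <;> simp
          · rw [Finset.sum_comm]
            refine Finset.sum_congr rfl fun i _ => ?_
            rw [Finset.sum_mul]
            refine Finset.sum_congr rfl fun j _ => ?_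
            split
            · ring
            · simp
      _ = _ := by simp only [Finset.sum_add_distrib]
  rw [e1]
  simp only [dt, vv, add_mul, Finset.sum_add_distrib]
  have t1 : ∀ g : G m, ∀ i : Fin m, (∑ j, if i < j then g.1 j + g.2 j else 0) =
      ∑ j, if i < j then uu g j else 0 := fun _ _ => rfl
  simp only [t1]
  have e2 : ∑ i, g.2 i * uu h i + ∑ i, h.2 i * uu g i =
      ∑ i, g.1 i * h.1 i + ∑ i, g.2 i * h.2 i + ∑ i, uu g i * uu h i := by
    rw [← Finset.sum_add_distrib, ← Finset.sum_add_distrib, ← Finset.sum_add_distrib]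
    refine Finset.sum_congr rfl fun i _ => ?_
    simp only [uu]
    have : ∀ a b c d : ZMod 2, b * (c + d) + d * (a + b) = a * c + b * d + (a + b) * (c + d) := by
      decide
    exact this _ _ _ _
  linear_combination e2

theorem gadd_self (g : G m) : g + g = 0 :=
  Prod.ext (funext fun _ => z2 _) (funext fun _ => z2 _)

theorem uv_inj {g h : G m} (h1 : uu g = uu h) (h2 : vv g = vv h) : g = h := by
  have h3 : ∀ i, g.2 i = h.2 i := by
    intro i
    have h4 := congrFun h2 i
    have h5 : (∑ j, if i < j then g.1 j + g.2 j else 0) =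
        ∑ j, if i < j then h.1 j + h.2 j else 0 := by
      refine Finset.sum_congr rfl fun j _ => ?_
      have := congrFun h1 j
      simp only [uu] at this
      rw [this]
    simp only [vv, h5] at h4
    exact add_right_cancel h4
  refine Prod.ext (funext fun i => ?_) (funext h3)
  have := congrFun h1 i
  simp only [uu, h3 i] at this
  exact add_right_cancel this

theorem uv_bij : Function.Bijective (fun g : G m => ((uu g, vv g) : G m)) := by
  refine Function.Injective.bijective_of_finite fun g h e => ?_
  exact uv_inj (congrArg Prod.fst e) (congrArg Prod.snd e)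

theorem sum_chi (w : V m) : ∑ v : V m, chi (dt v w) = if w = 0 then 2 ^ m else 0 := by
  have h1 : ∀ v : V m, chi (dt v w) = ∏ i, chi (v i * w i) := fun v => chi_sum _ _
  simp only [h1]
  have h2 : ∑ v : V m, ∏ i, chi (v i * w i) = ∏ i, ∑ x : ZMod 2, chi (x * w i) := by
    rw [Finset.prod_univ_sum, Fintype.piFinset_univ]
  rw [h2]
  have h3 : ∀ y : ZMod 2, ∑ x : ZMod 2, chi (x * y) = if y = 0 then 2 else 0 := by
    intro y
    rcases (show ∀ x : ZMod 2, x = 0 ∨ x = 1 by decide) y with rfl | rfl
    · simp [ZMod.card]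
    · have : (univ : Finset (ZMod 2)) = {0, 1} := by decide
      rw [this, Finset.sum_insert (by decide), Finset.sum_singleton]
      simp [chi]
  simp only [h3]
  by_cases h : w = 0
  · subst h
    simp
  · rw [if_neg h]
    obtain ⟨i, hi⟩ := Function.ne_iff.mp h
    exact Finset.prod_eq_zero (Finset.mem_univ i) (if_neg hi)

theorem dt_comm (v w : V m) : dt v w = dt w v :=
  Finset.sum_congr rfl fun _ _ => mul_comm _ _

/-- Completeness. -/
theorem xr_comp (p q r l : V m) :
    ∑ g : G m, xr g p q * xr g r l = if p = r ∧ q = l then 2 ^ m else 0 := by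
  have h1 : ∑ g : G m, xr g p q * xr g r l = ∑ x : G m,
      (if p = q + x.1 then chi (dt x.2 q) else 0) * (if r = l + x.1 then chi (dt x.2 l) else 0) :=
    Function.Bijective.sum_comp uv_bij (fun x : G m =>
      (if p = q + x.1 then chi (dt x.2 q) else 0) * (if r = l + x.1 then chi (dt x.2 l) else 0))
  rw [h1, Fintype.sum_prod_type]
  have h2 : ∀ u : V m, ∑ v : V m, (if p = q + u then chi (dt v q) else 0) *
      (if r = l + u then chi (dt v l) else 0) =
      if p = q + u ∧ r = l + u then (if q + l = 0 then 2 ^ m else 0) else 0 := by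
    intro u
    by_cases ha : p = q + u
    · by_cases hb : r = l + u
      · simp only [if_pos ha, if_pos hb, if_pos (And.intro ha hb)]
        rw [← sum_chi]
        refine Finset.sum_congr rfl fun v _ => ?_
        rw [dt_add_right, chi_add]
      · simp [hb]
    · simp [ha]
  simp only [h2]
  by_cases h : q = l
  · subst h
    have h4 : ∀ u : V m, (p = q + u ∧ r = q + u) ↔ (u = p + q ∧ p = r) := by
      intro u
      constructor
      · rintro ⟨rfl, rfl⟩
        refine ⟨?_, rfl⟩
        rw [add_comm q u, vadd_cancel]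
      · rintro ⟨rfl, rfl⟩
        have : p = q + (p + q) := by rw [add_comm q, vadd_cancel]
        exact ⟨this, this⟩
    by_cases hr : p = r
    · subst hr
      simp only [h4, and_true]
      simp [vadd_self]
    · simp [h4, hr]
  · have h3 : ¬ q + l = 0 := by
      intro e
      apply h
      have := congrArg (· + l) e
      simpa [vadd_cancel] using this
    simp [h, h3]

theorem xr_trace (g : G m) : ∑ i, xr g i i = if g = 0 then 2 ^ m else 0 := by
  have h0 : ∀ i : V m, (i = i + uu g) ↔ uu g = 0 := by
    intro i
    constructor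
    · intro h
      have := congrArg (i + ·) h
      simp only [vadd_self, ← add_assoc, zero_add] at this
      exact this.symm
    · intro h
      rw [h, add_zero]
  simp only [xr, h0]
  by_cases h : uu g = 0
  · simp only [if_pos h]
    have : ∑ i, chi (dt (vv g) i) = ∑ i, chi (dt i (vv g)) :=
      Finset.sum_congr rfl fun i _ => by rw [dt_comm]
    rw [this, sum_chi]
    by_cases h2 : vv g = 0
    · rw [if_pos h2, if_pos]
      refine uv_inj ?_ ?_
      · rw [h]; funext i; simp [uu]
      · rw [h2]; funext i; simp [vv]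
    · rw [if_neg h2, if_neg]
      rintro rfl
      apply h2
      funext i
      simp [vv]
  · simp only [if_neg h, Finset.sum_const_zero]
    rw [if_neg]
    rintro rfl
    apply h
    funext i
    simp [uu]

theorem xr_zero (p q : V m) : xr (0 : G m) p q = if p = q then 1 else 0 := by
  have h1 : uu (0 : G m) = 0 := by funext i; simp [uu]
  have h2 : vv (0 : G m) = 0 := by funext i; simp [vv]
  simp only [xr, h1, h2, add_zero]
  have : dt (0 : V m) q = 0 := by simp [dt]
  rw [this, chi_zero]

/-- The features: the coordinates and the parity. -/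
abbrev Ft (m : ℕ) := (Fin m ⊕ Fin m) ⊕ Unit

/-- The value of a feature. -/
def ft (g : G m) : Ft m → ZMod 2
  | Sum.inl (Sum.inl i) => g.1 i
  | Sum.inl (Sum.inr i) => g.2 i
  | Sum.inr _ => ∑ i, (g.1 i + g.2 i)

theorem ft_add (g h : G m) (l : Ft m) : ft (g + h) l = ft g l + ft h l := by
  rcases l with (i | i) | u
  · rfl
  · rfl
  · simp only [ft, Prod.fst_add, Prod.snd_add, Pi.add_apply, ← Finset.sum_add_distrib]
    exact Finset.sum_congr rfl fun i _ => by ring

/-- `1 / √3`. -/
noncomputable def tau : ℝ := √(1 / 3)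

theorem tau_sq : tau * tau = 1 / 3 := Real.mul_self_sqrt (by norm_num)

theorem sqrt2_sq : √2 * √2 = 2 := Real.mul_self_sqrt (by norm_num)

/-- The noise on one feature. -/
noncomputable def mu1 (x : ZMod 2) : ℝ := if x = 0 then 1 else tau

/-- The two vectors. -/
noncomputable def yy (b : Bool) (x : ZMod 2) : ℝ :=
  if b then (if x = 0 then 1 else tau) else (if x = 0 then 0 else √2 * tau)

/-- The two signs. -/
noncomputable def sb (b : Bool) : ℝ := if b then 1 else -1

theorem yy_pos (x y : ZMod 2) : ∑ b, yy b x * yy b y = mu1 (x + y) := by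
  rw [Fintype.sum_bool]
  rcases (show ∀ x : ZMod 2, x = 0 ∨ x = 1 by decide) x with rfl | rfl <;>
  rcases (show ∀ x : ZMod 2, x = 0 ∨ x = 1 by decide) y with rfl | rfl
  · simp [yy, mu1]
  · simp [yy, mu1]
  · simp [yy, mu1]
  · have h1 : (1 + 1 : ZMod 2) = 0 := by decide
    simp [yy, mu1, h1]
    nlinarith [tau_sq, sqrt2_sq]

theorem yy_neg (x y : ZMod 2) :
    ∑ b, sb b * (yy b x * yy b y) = mu1 x * mu1 y * chi (x * y) := by
  rw [Fintype.sum_bool]
  rcases (show ∀ x : ZMod 2, x = 0 ∨ x = 1 by decide) x with rfl | rfl <;>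
  rcases (show ∀ x : ZMod 2, x = 0 ∨ x = 1 by decide) y with rfl | rfl
  · simp [yy, mu1, sb]
  · simp [yy, mu1, sb]
  · simp [yy, mu1, sb]
  · simp [yy, mu1, sb, chi]
    have := tau_sq
    have := sqrt2_sq
    have e : √2 * tau * (√2 * tau) = (√2 * √2) * (tau * tau) := by ring
    rw [e]
    nlinarith [tau_sq, sqrt2_sq]

/-- The noise. -/
noncomputable def mu (g : G m) : ℝ := ∏ l, mu1 (ft g l)

/-- The vectors. -/
noncomputable def YY (c : Ft m → Bool) (g : G m) : ℝ := ∏ l, yy (c l) (ft g l)

theorem YY_pos (g h : G m) : ∑ c, YY c g * YY c h = mu (g + h) := by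
  have : ∀ c, YY c g * YY c h = ∏ l, yy (c l) (ft g l) * yy (c l) (ft h l) :=
    fun c => Finset.prod_mul_distrib.symm
  simp only [this, mu, ft_add, ← yy_pos]
  rw [Finset.prod_univ_sum, Fintype.piFinset_univ]

theorem eps_eq (g h : G m) : ∏ l, chi (ft g l * ft h l) =
    chi (dt (vv g) (uu h)) * chi (dt (vv h) (uu g)) := by
  rw [← chi_add, sympl, chi_add, chi_add, chi_sum, chi_sum, Fintype.prod_sum_type,
    Fintype.prod_sum_type]
  simp [ft]

theorem YY_neg (g h : G m) : ∑ c : Ft m → Bool, (∏ l, sb (c l)) * (YY c g * YY c h) =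
    mu g * mu h * (chi (dt (vv g) (uu h)) * chi (dt (vv h) (uu g))) := by
  have : ∀ c : Ft m → Bool, (∏ l, sb (c l)) * (YY c g * YY c h) =
      ∏ l, sb (c l) * (yy (c l) (ft g l) * yy (c l) (ft h l)) := by
    intro c
    rw [YY, YY, ← Finset.prod_mul_distrib, ← Finset.prod_mul_distrib]
  simp only [this]
  rw [← eps_eq, mu, mu, ← Finset.prod_mul_distrib, ← Finset.prod_mul_distrib]
  simp only [← yy_neg]
  rw [Finset.prod_univ_sum, Fintype.piFinset_univ]

theorem mu_zero : mu (0 : G m) = 1 := by
  refine Finset.prod_eq_one fun l _ => ?_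
  rcases l with (i | i) | u <;> simp [ft, mu1]

end model

end Vale.Agent.P372.H132
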